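import Vale.Agent.Helper10.Class3Final
import Vale.Agent.Helper10.Meta4

namespace Vale.Agent.Results.P329.HeightOneNilpotent

open Vale.Agent.Helper10

/-- Languages recognised by finite nilpotent groups of small class have generalized star
height at most one.  In each part `G` is a finite nilpotent group, `f` is an arbitrary map
from the letters of a finite alphabet into `G`, `T` is an arbitrary set of elements of `G`, and
the language of the words whose product lies in `T` is denoted by a generalized regular
expression `e` with `e.height ≤ 1`.

1. `G` of class at most three.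
2. `G` of class at most four whose commutator subgroup is abelian.
3. `G` of class at most four which is generated by two elements. -/
theorem result :
    (∀ (G : Type) [Group G] [Finite G] [Group.IsNilpotent G], Group.nilpotencyClass G ≤ 3 →
      ∀ (α : Type) [Fintype α] (f : α → G) (T : Set G),
        ∃ e : GRE α, e.height ≤ 1 ∧ ∀ w : List α, w ∈ e.lang ↔ (w.map f).prod ∈ T) ∧
    (∀ (G : Type) [Group G] [Finite G] [Group.IsNilpotent G], Group.nilpotencyClass G ≤ 4 →
      (∀ a ∈ commutator G, ∀ b ∈ commutator G, a * b = b * a) →
      ∀ (α : Type) [Fintype α] (f : α → G) (T : Set G),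
        ∃ e : GRE α, e.height ≤ 1 ∧ ∀ w : List α, w ∈ e.lang ↔ (w.map f).prod ∈ T) ∧
    (∀ (G : Type) [Group G] [Finite G] [Group.IsNilpotent G], Group.nilpotencyClass G ≤ 4 →
      ∀ x y : G, Subgroup.closure ({x, y} : Set G) = ⊤ →
      ∀ (α : Type) [Fintype α] (f : α → G) (T : Set G),
        ∃ e : GRE α, e.height ≤ 1 ∧ ∀ w : List α, w ∈ e.lang ↔ (w.map f).prod ∈ T) := by
  refine ⟨?_, ?_, ?_⟩
  · intro G _ _ _ hc α _ f T
    exact class3_gsh hc f T
  · intro G _ _ _ hc hab α _ f T
    refine class4_meta_gsh hc (commutator G) hab f (fun a b => ?_) T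
    rw [commutator_def]
    exact Subgroup.commutator_mem_commutator (Subgroup.mem_top (f a)) (Subgroup.mem_top (f b))
  · intro G _ _ _ hc x y hxy α _ f T
    refine class4_two_gen_gsh hc x y f (fun a => ?_) T
    rw [hxy]
    exact Subgroup.mem_top (f a)

end Vale.Agent.Results.P329.HeightOneNilpotent
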