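import Vale.Agent.Helper10.PMFinal
import Vale.Agent.Helper4.P329Final
import Vale.Agent.Helper10.Class3Final
import Vale.Agent.Helper10.PrefixCount

namespace Vale.Agent.Results.P329.HeightOneTwoWayClocks

open Vale.Agent.Helper10

/-- Five families of regular languages of generalized star height at most one.  In each part
the language is denoted by a generalized regular expression `e` with `e.height ≤ 1`.

1. Abelian normal subgroup and two opposite cosets: `G` is a finite group, `N` an abelian
   normal subgroup, `g` an element of `G`, and the letters are sent into `N`, into the coset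
   `g N` or into the coset `g⁻¹ N`; the language is the set of the words whose product lies in
   a given set `T`.
2. Two-way positional counting modulo an arbitrary `m`: the words `w` in which the number of
   positions which carry a letter with the property `sp` and at which the number of earlier
   letters with the property `up` minus the number of earlier letters with the property `dn`
   is congruent to `x` modulo `m` is congruent to `r` modulo `e`.
3. Abelian by elementary abelian: `G` has an abelian normal subgroup `N` containing all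
   commutators and all `p`-th powers, for a prime `p`; arbitrary letter maps.
4. Nilpotent groups of class at most three; arbitrary letter maps.
5. Counting modulo `M` the nonempty prefixes which lead a counter-free automaton from the
   state `q0` into the set `F`. -/
theorem result :
    (∀ (G : Type) [Group G] [Finite G] (N : Subgroup G) [N.Normal],
      (∀ a ∈ N, ∀ b ∈ N, a * b = b * a) →
      ∀ (g : G) (α : Type) [Fintype α] (f : α → G),
        (∀ a, f a ∈ N ∨ g⁻¹ * f a ∈ N ∨ g * f a ∈ N) →
        ∀ T : Set G,
          ∃ e : GRE α, e.height ≤ 1 ∧ ∀ w : List α, w ∈ e.lang ↔ (w.map f).prod ∈ T) ∧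
    (∀ (α : Type) [Fintype α] (up dn sp : α → Prop) [DecidablePred up] [DecidablePred dn]
      [DecidablePred sp] (m e : ℕ) (x : ℤ) (r : ℕ), 0 < m → 0 < e →
        ∃ E : GRE α, E.height ≤ 1 ∧ ∀ w : List α, w ∈ E.lang ↔
          (Finset.univ.filter (fun i : Fin w.length => sp (w.get i) ∧
            (((w.take i).countP (fun a => decide (up a)) : ℕ) : ℤ)
              - (((w.take i).countP (fun a => decide (dn a)) : ℕ) : ℤ) ≡ x [ZMOD m])).card
            ≡ r [MOD e]) ∧
    (∀ (G : Type) [Group G] [Finite G] (p : ℕ) [Fact p.Prime] (N : Subgroup G) [N.Normal],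
      (∀ a ∈ N, ∀ b ∈ N, a * b = b * a) → (∀ g h : G, g * h * g⁻¹ * h⁻¹ ∈ N) →
      (∀ g : G, g ^ p ∈ N) →
      ∀ (α : Type) [Fintype α] (f : α → G) (T : Set G),
        ∃ e : GRE α, e.height ≤ 1 ∧ ∀ w : List α, w ∈ e.lang ↔ (w.map f).prod ∈ T) ∧
    (∀ (G : Type) [Group G] [Finite G] [Group.IsNilpotent G], Group.nilpotencyClass G ≤ 3 →
      ∀ (α : Type) [Fintype α] (f : α → G) (T : Set G),
        ∃ e : GRE α, e.height ≤ 1 ∧ ∀ w : List α, w ∈ e.lang ↔ (w.map f).prod ∈ T) ∧
    (∀ (Q α : Type) [Fintype Q] [DecidableEq Q] [Fintype α] (δ : Q → α → Q),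
      (∀ (w : List α) (q : Q) (n : ℕ), 0 < n →
        (fun x => List.foldl δ x w)^[n] q = q → List.foldl δ q w = q) →
      ∀ (q0 : Q) (F : Finset Q) (M r : ℕ), 0 < M →
        ∃ e : GRE α, e.height ≤ 1 ∧ ∀ w : List α, w ∈ e.lang ↔
          ((Finset.range w.length).filter
            (fun n => List.foldl δ q0 (w.take (n + 1)) ∈ F)).card ≡ r [MOD M]) := by
  refine ⟨?_, ?_, ?_, ?_, ?_⟩
  · intro G _ _ N _ hab g α _ f hf T
    exact coset_pm_gsh N hab g f hf T
  · intro α _ up dn sp _ _ _ m e x r hm he
    exact pos_pm_gsh up dn sp m e x r hm he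
  · intro G _ _ p _ N _ hab hcomm hexp α _ f T
    exact Vale.Agent.Helper4.P329.gsh_of_abelian_by_elementary p N hab hcomm hexp f T
  · intro G _ _ _ hc α _ f T
    exact class3_gsh hc f T
  · intro Q α _ _ _ δ hcf q0 F M r hM
    classical
    have : NeZero M := ⟨hM.ne'⟩
    obtain ⟨e, he, hl⟩ := pcount_gsh δ F M hcf q0 r
    refine ⟨e, he, fun w => ?_⟩
    rw [hl w, card_prefix_eq]

end Vale.Agent.Results.P329.HeightOneTwoWayClocks
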