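import Vale.Agent.Helper10.PMFinal
import Vale.Agent.Helper4.P329Final
import Vale.Agent.Helper10.Class3Final
import Vale.Agent.Helper15.F20Two
import Vale.Agent.Helper15.F20Three
import Vale.Agent.Helper15.S4Two
import Vale.Agent.Helper10.SymCycles
import Vale.Agent.Helper10.Unip4
import Vale.Agent.Helper10.Two4
import Vale.Agent.Helper10.Meta4

namespace Vale.Agent.Results.P329.HeightOneWithF20AndZ4

open Vale.Agent.Helper10

/-- Ten families of regular languages of generalized star height at most one.  In the parts
1 to 8 and 10, `f` sends the letters of a finite alphabet into a group `G`, `T` is a set of elements of `G`,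
and the language of the words whose product lies in `T` is denoted by a generalized regular
expression `e` with `e.height ≤ 1`.

1. Abelian normal subgroup and two opposite cosets: `G` is a finite group, `N` an abelian
   normal subgroup, `g` an element of `G`, and the letters are sent into `N`, into the coset
   `g N` or into the coset `g⁻¹ N`.
2. Abelian by elementary abelian: `G` is finite with an abelian normal subgroup `N` containing
   all commutators and all `p`-th powers, for a prime `p`; arbitrary letter maps.
3. Finite nilpotent groups of class at most three; arbitrary letter maps.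
4. The Frobenius group of order 20 through two arbitrary letters: `G` is a group with
   elements `g` and `r` such that `r ^ 5 = 1`, `g ^ 4 = 1` and `g * r * g⁻¹ = r ^ 2`, every
   element of `G` has the form `r ^ i * g ^ j`, and every letter is sent to `1`, to `a` or to
   `b`, where `a` and `b` are two arbitrary elements of `G`.
5. The same relations `r ^ 5 = 1`, `g ^ 4 = 1`, `g * r * g⁻¹ = r ^ 2` in any group `G`, with
   at most one letter value in each of the three nontrivial cosets: every letter is sent to
   `1`, to `r ^ i1 * g`, to `r ^ i2 * g ^ 2` or to `r ^ i3 * g ^ 3`, for fixed exponents.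
6. The symmetric group on four points through two arbitrary letters: every letter is sent to
   `1`, to `a` or to `b`, where `a` and `b` are two arbitrary permutations of `Fin 4`.
7. Symmetric groups of all degrees through increasing cycles: `G` is the group of the
   permutations of `Fin (n + 1)` and every letter is sent to a permutation which maps each
   `i ≠ 0` to `0` or to some `j ≥ i`.  These permutations are the identity and the cycles
   `(0 i₁ … i_k)` with `i₁ < … < i_k`, for instance the transpositions `(0 k)` and the full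
   cycle `(0 1 … n)`, so the letters may generate the whole symmetric group.
8. Nilpotent groups of class at most four, letters commuting modulo an abelian normal
   subgroup: `G` is a finite nilpotent group of class at most four, `N` an abelian normal
   subgroup, and the images of the letters commute modulo `N`, that is, the commutators
   `f a * f b * (f a)⁻¹ * (f b)⁻¹` of the images of the letters lie in `N`.  In particular:
   every finite nilpotent group of class at most four whose commutator subgroup is abelian,
   with arbitrary letter maps (take for `N` the commutator subgroup); and every finite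
   nilpotent group of class at most four with an abelian normal subgroup `N` such that `G / N`
   is cyclic, for instance the wreath product of the groups of orders two and four.
9. Scattered subwords of length at most three: for a word `u` of length at most three and
   `q ≥ 1`, the words `w` in which the number of occurrences of `u` as a scattered subword
   (the number of ways of choosing positions of `w` which spell `u`) is congruent to `r`
   modulo `q`.
10. Nilpotent groups of class at most four, letters in a two-generator subgroup: `G` is a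
   finite nilpotent group of class at most four, and every letter is sent into the subgroup
   generated by two elements `x` and `y`.  In particular: every finite nilpotent group of
   class at most four that is generated by two elements, with arbitrary letter maps. -/
theorem result :
    (∀ (G : Type) [Group G] [Finite G] (N : Subgroup G) [N.Normal],
      (∀ a ∈ N, ∀ b ∈ N, a * b = b * a) →
      ∀ (g : G) (α : Type) [Fintype α] (f : α → G),
        (∀ a, f a ∈ N ∨ g⁻¹ * f a ∈ N ∨ g * f a ∈ N) →
        ∀ T : Set G,
          ∃ e : GRE α, e.height ≤ 1 ∧ ∀ w : List α, w ∈ e.lang ↔ (w.map f).prod ∈ T) ∧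
    (∀ (G : Type) [Group G] [Finite G] (p : ℕ) [Fact p.Prime] (N : Subgroup G) [N.Normal],
      (∀ a ∈ N, ∀ b ∈ N, a * b = b * a) → (∀ g h : G, g * h * g⁻¹ * h⁻¹ ∈ N) →
      (∀ g : G, g ^ p ∈ N) →
      ∀ (α : Type) [Fintype α] (f : α → G) (T : Set G),
        ∃ e : GRE α, e.height ≤ 1 ∧ ∀ w : List α, w ∈ e.lang ↔ (w.map f).prod ∈ T) ∧
    (∀ (G : Type) [Group G] [Finite G] [Group.IsNilpotent G], Group.nilpotencyClass G ≤ 3 →
      ∀ (α : Type) [Fintype α] (f : α → G) (T : Set G),
        ∃ e : GRE α, e.height ≤ 1 ∧ ∀ w : List α, w ∈ e.lang ↔ (w.map f).prod ∈ T) ∧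
    (∀ (G : Type) [Group G] (g r : G), r ^ 5 = 1 → g ^ 4 = 1 → g * r * g⁻¹ = r ^ 2 →
      (∀ h : G, ∃ i j : ℕ, h = r ^ i * g ^ j) →
      ∀ (a b : G) (α : Type) [Fintype α] (f : α → G), (∀ c, f c = 1 ∨ f c = a ∨ f c = b) →
        ∀ T : Set G,
          ∃ e : GRE α, e.height ≤ 1 ∧ ∀ w : List α, w ∈ e.lang ↔ (w.map f).prod ∈ T) ∧
    (∀ (G : Type) [Group G] (g r : G), r ^ 5 = 1 → g ^ 4 = 1 → g * r * g⁻¹ = r ^ 2 →
      ∀ (i1 i2 i3 : ℕ) (α : Type) [Fintype α] (f : α → G),
        (∀ c, f c = 1 ∨ f c = r ^ i1 * g ∨ f c = r ^ i2 * g ^ 2 ∨ f c = r ^ i3 * g ^ 3) →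
        ∀ T : Set G,
          ∃ e : GRE α, e.height ≤ 1 ∧ ∀ w : List α, w ∈ e.lang ↔ (w.map f).prod ∈ T) ∧
    (∀ (a b : Equiv.Perm (Fin 4)) (α : Type) [Fintype α] (f : α → Equiv.Perm (Fin 4)),
      (∀ c, f c = 1 ∨ f c = a ∨ f c = b) →
        ∀ T : Set (Equiv.Perm (Fin 4)),
          ∃ e : GRE α, e.height ≤ 1 ∧ ∀ w : List α, w ∈ e.lang ↔ (w.map f).prod ∈ T) ∧
    (∀ (n : ℕ) (α : Type) [Fintype α] (f : α → Equiv.Perm (Fin (n + 1))),
      (∀ (a : α) (i : Fin (n + 1)), i ≠ 0 → f a i = 0 ∨ i ≤ f a i) →
        ∀ T : Set (Equiv.Perm (Fin (n + 1))),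
          ∃ e : GRE α, e.height ≤ 1 ∧ ∀ w : List α, w ∈ e.lang ↔ (w.map f).prod ∈ T) ∧
    (∀ (G : Type) [Group G] [Finite G] [Group.IsNilpotent G], Group.nilpotencyClass G ≤ 4 →
      ∀ (N : Subgroup G) [N.Normal], (∀ a ∈ N, ∀ b ∈ N, a * b = b * a) →
      ∀ (α : Type) [Fintype α] (f : α → G),
        (∀ a b : α, f a * f b * (f a)⁻¹ * (f b)⁻¹ ∈ N) →
        ∀ T : Set G,
          ∃ e : GRE α, e.height ≤ 1 ∧ ∀ w : List α, w ∈ e.lang ↔ (w.map f).prod ∈ T) ∧
    (∀ (α : Type) [Fintype α] [DecidableEq α] (u : List α), u.length ≤ 3 →
      ∀ q r : ℕ, 0 < q →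
        ∃ e : GRE α, e.height ≤ 1 ∧
          ∀ w : List α, w ∈ e.lang ↔ List.count u (List.sublists w) ≡ r [MOD q]) ∧
    (∀ (G : Type) [Group G] [Finite G] [Group.IsNilpotent G], Group.nilpotencyClass G ≤ 4 →
      ∀ (x y : G) (α : Type) [Fintype α] (f : α → G),
        (∀ a, f a ∈ Subgroup.closure ({x, y} : Set G)) →
        ∀ T : Set G,
          ∃ e : GRE α, e.height ≤ 1 ∧ ∀ w : List α, w ∈ e.lang ↔ (w.map f).prod ∈ T) := by
  refine ⟨?_, ?_, ?_, ?_, ?_, ?_, ?_, ?_, ?_, ?_⟩
  · intro G _ _ N _ hab g α _ f hf T
    exact coset_pm_gsh N hab g f hf T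
  · intro G _ _ p _ N _ hab hcomm hexp α _ f T
    exact Vale.Agent.Helper4.P329.gsh_of_abelian_by_elementary p N hab hcomm hexp f T
  · intro G _ _ _ hc α _ f T
    exact class3_gsh hc f T
  · intro G _ g r hr hg hgr hgen a b α _ f hf T
    exact Vale.Agent.Helper15.F20.gsh_f20_two g r hr hg hgr hgen a b f hf T
  · intro G _ g r hr hg hgr i1 i2 i3 α _ f hf T
    exact Vale.Agent.Helper15.F20.gsh_f20_three g r hr hg hgr i1 i2 i3 f hf T
  · intro a b α _ f hf T
    exact Vale.Agent.Helper15.S4.gsh_s4_two a b f hf T
  · intro n α _ f hf T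
    exact sym_cycles_gsh f hf T
  · intro G _ _ _ hc N _ hab α _ f hfc T
    exact class4_meta_gsh hc N hab f hfc T
  · intro α _ _ u hu q r hq
    exact sw_gsh q hq r u hu
  · intro G _ _ _ hc x y α _ f hf T
    exact class4_two_gen_gsh hc x y f hf T

end Vale.Agent.Results.P329.HeightOneWithF20AndZ4
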