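import Vale.Agent.Helper10.InvMorph

namespace Vale.Agent.Results.P329.InverseMorphismReduction

open Vale.Agent.Helper10

/-- A criterion for generalized star height at most one, and a reduction of the generalized
star-height problem to inverse morphisms.

1. Criterion.  Let `δ` be the transition function of a complete deterministic automaton with
   finite state set `Q` over a finite alphabet `α` and let `q0` be a state such that the
   automaton obtained by making `q0` absorbing is counter-free: no word induces, on that
   modified automaton, a cycle of length at least two.  Then every language recognised by the
   transition monoid of the original automaton (the set of the words whose induced map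
   `Q → Q` lies in a given set `S`) is denoted by a generalized regular expression of star
   height at most one.
2. Reduction.  For every regular language `L` over a finite alphabet `α` there are a finite
   alphabet `β`, a word `h x` over `β` for every letter `x` of `α`, and a generalized regular
   expression `e` over `β` of star height at most one, denoting a regular language, such that
   a word `w` over `α` belongs to `L` if and only if the word `w.flatMap h`, obtained from `w`
   by replacing every letter `x` by `h x`, belongs to the language of `e`.  So every regular
   language is the inverse image, under a morphism of free monoids, of a language of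
   generalized star height at most one.
3. Equivalence.  Every regular language over every finite alphabet has generalized star
   height at most one if and only if the regular languages of generalized star height at most
   one are closed under inverse images by such morphisms. -/
theorem result :
    (∀ (Q α : Type) [Fintype Q] [Fintype α] [DecidableEq Q] (δ : Q → α → Q) (q0 : Q),
      (∀ (w : List α) (q : Q) (n : ℕ), 0 < n →
        (fun x => List.foldl (fun y a => if y = q0 then q0 else δ y a) x w)^[n] q = q →
          List.foldl (fun y a => if y = q0 then q0 else δ y a) q w = q) →
      ∀ S : Set (Q → Q),
        ∃ e : GRE α, e.height ≤ 1 ∧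
          ∀ w : List α, w ∈ e.lang ↔ (fun q => List.foldl δ q w) ∈ S) ∧
    (∀ (α : Type) [Fintype α] (L : Language α), L.IsRegular →
      ∃ (β : Type) (_ : Fintype β) (h : α → List β) (e : GRE β),
        e.height ≤ 1 ∧ e.lang.IsRegular ∧ ∀ w : List α, w ∈ L ↔ w.flatMap h ∈ e.lang) ∧
    ((∀ (α : Type) [Fintype α] (L : Language α), L.IsRegular →
        ∃ e : GRE α, e.height ≤ 1 ∧ e.lang = L) ↔
      (∀ (α β : Type) [Fintype α] [Fintype β] (h : α → List β) (e : GRE β), e.height ≤ 1 →
        e.lang.IsRegular →
        ∃ e' : GRE α, e'.height ≤ 1 ∧ ∀ w : List α, w ∈ e'.lang ↔ w.flatMap h ∈ e.lang)) := by
  refine ⟨?_, ?_, ?_⟩
  · intro Q α _ _ _ δ q0 hcf S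
    exact one_base_set δ q0 hcf S
  · intro α _ L hL
    exact regular_inv_morph L hL
  · exact inv_morph_iff

end Vale.Agent.Results.P329.InverseMorphismReduction
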