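import Vale.Agent.Helper10.Class3Final

namespace Vale.Agent.Results.P329.NilpotentClassThree

open Vale.Agent.Helper10

/-- Nilpotent groups of class at most three, and scattered subwords of length at most three.

First part: every language recognised by a finite nilpotent group `G` of class at most three
has generalized star height at most one: for every finite alphabet `α`, every assignment `f`
of elements of `G` to the letters and every set `T` of elements of `G`, the language of the
words whose product lies in `T` is denoted by a generalized regular expression of star height
at most one.

Second part: for every word `u` of length at most three over a finite alphabet `α` and all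
natural numbers `q ≥ 1` and `r`, the language of the words `w` in which `u` occurs as a
scattered subword (a subsequence, counted as the number of ways of choosing positions of `w`
which spell `u`) a number of times congruent to `r` modulo `q` is denoted by a generalized
regular expression of star height at most one. -/
theorem result :
    (∀ (G : Type) [Group G] [Finite G] [Group.IsNilpotent G], Group.nilpotencyClass G ≤ 3 →
      ∀ (α : Type) [Fintype α] (f : α → G) (T : Set G),
        ∃ e : GRE α, e.height ≤ 1 ∧ ∀ w : List α, w ∈ e.lang ↔ (w.map f).prod ∈ T) ∧
    (∀ (α : Type) [Fintype α] [DecidableEq α] (u : List α), u.length ≤ 3 →
      ∀ q r : ℕ, 0 < q →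
        ∃ e : GRE α, e.height ≤ 1 ∧
          ∀ w : List α, w ∈ e.lang ↔ List.count u (List.sublists w) ≡ r [MOD q]) :=
  ⟨fun _ _ _ _ hc _ _ f T => class3_gsh hc f T,
    fun _ _ _ u hu q r hq => sw_gsh q hq r u hu⟩

end Vale.Agent.Results.P329.NilpotentClassThree
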