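import Vale.Agent.Helper10.OneBase

namespace Vale.Agent.Results.P329.OneStateCounterFree

open Vale.Agent.Helper10

/-- A criterion for generalized star height at most one. Let `δ` be the transition function
of a complete deterministic automaton with finite state set `Q` over a finite alphabet `α`
and let `q0` be a state such that the automaton obtained by making `q0` absorbing is
counter-free: no word induces, on that modified automaton, a cycle of length at least two.
Then every language recognised by the transition monoid of the original automaton (the set
of words whose induced map `Q → Q` lies in a given set `S`) is denoted by a generalized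
regular expression of star height at most one. -/
theorem result (Q α : Type) [Fintype Q] [Fintype α] [DecidableEq Q] (δ : Q → α → Q) (q0 : Q)
    (hcf : ∀ (w : List α) (q : Q) (n : ℕ), 0 < n →
      (fun x => List.foldl (fun y a => if y = q0 then q0 else δ y a) x w)^[n] q = q →
        List.foldl (fun y a => if y = q0 then q0 else δ y a) q w = q)
    (S : Set (Q → Q)) :
    ∃ e : GRE α, e.height ≤ 1 ∧
      ∀ w : List α, w ∈ e.lang ↔ (fun q => List.foldl δ q w) ∈ S :=
  one_base_set δ q0 hcf S

end Vale.Agent.Results.P329.OneStateCounterFree
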